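import Mathlib

/-! The planar part of the argument: a steady extremal configuration is impossible. -/

namespace Vale.Agent.P084

/-- homogeneity and convexity in the first variable -/
structure Pl (P : ℝ → ℝ → ℝ) : Prop where
  hom : ∀ s c r, 0 ≤ s → P (s * c) (s * r) = s * P c r
  conv : ∀ c₁ c₂ r, 0 ≤ c₁ → c₁ ≤ c₂ → 0 ≤ r → c₂ * P c₁ r ≤ (c₂ - c₁) * r + c₁ * P c₂ r

theorem Pl.line {P : ℝ → ℝ → ℝ} (h : Pl P) {c₁ c₂ r s : ℝ} (h0 : 0 ≤ c₁) (h1 : c₁ ≤ c₂)
    (h2 : 0 < c₂) (hr : 0 ≤ r) (hs : P c₂ r ≤ r + s * c₂) : P c₁ r ≤ r + s * c₁ := by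
  have := h.conv c₁ c₂ r h0 h1 hr
  have h3 : c₂ * P c₁ r ≤ c₂ * (r + s * c₁) := by nlinarith
  exact le_of_mul_le_mul_left h3 h2

theorem Pl.slope {P : ℝ → ℝ → ℝ} (h : Pl P) {p t T c s : ℝ} (hp : 0 < p) (ht : 0 < t)
    (hT : 0 < T) (htT : t + T = 1) (h1 : 1 ≤ P p t) (hc : p * T ≤ c * t) (hc0 : 0 < c)
    (hs : P c T ≤ T + s * c) : T ≤ s * p := by
  have e1 := h.hom (T / t) p t (by positivity)
  rw [div_mul_cancel₀ _ ht.ne'] at e1
  have hle : T / t * p ≤ c := by
    rw [div_mul_eq_mul_div, div_le_iff₀ ht]; linarith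
  have := h.line (by positivity) hle hc0 hT.le hs
  rw [e1] at this
  have hq : 0 < T / t := by positivity
  have e2 : T = T / t * t := (div_mul_cancel₀ _ ht.ne').symm
  have h3 : T / t * 1 ≤ T / t * (t + s * p) := by
    calc T / t * 1 ≤ T / t * P p t := by gcongr
      _ ≤ T + s * (T / t * p) := this
      _ = T / t * (t + s * p) := by rw [mul_add, ← e2]; ring
  have := le_of_mul_le_mul_left h3 hq
  linarith

/-- the data of one chain -/
structure Ch (P Q : ℝ → ℝ → ℝ) (p q M η t T : ℝ) : Prop where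
  hP : Pl P
  hQ : Pl Q
  c1 : ∀ r, 0 ≤ r → r ≤ t → Q (p + M) r ≤ P p r + M + η * M
  c2 : 1 ≤ P p t
  c2' : Q (p + M) t ≤ 1 + η * M
  c3 : ∀ r, 0 ≤ r → r ≤ T → P (q + M) r ≤ Q q r + M + η * M
  c4 : P (q + M) T ≤ Q q T + η * M

variable {P Q : ℝ → ℝ → ℝ} {p q M η t T : ℝ}

theorem Ch.good (h : Ch P Q p q M η t T) (hp : 0 < p) (hq : 0 < q) (hM : 0 < M)
    (ht : 0 < t) (hT : 0 < T) (htT : t + T = 1) (hg : (p + M) * T ≤ q * t) :
    T * (p + q + M) ≤ p * q + η * p * (p + q + M) ∧ P (q + M) T ≤ q + η * (p + q + M) := by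
  have hp' : 0 < p + M := by linarith
  have hq' : 0 < q + M := by linarith
  set σ := q / (p + M) with hσ
  have hσ0 : 0 < σ := by positivity
  have eσ : σ * (p + M) = q := div_mul_cancel₀ _ hp'.ne'
  set r := T / σ with hr
  have er : σ * r = T := by rw [hr]; field_simp
  have hr0 : 0 ≤ r := by positivity
  have hrt : r ≤ t := by
    have : σ * r * (p + M) ≤ σ * t * (p + M) := by nlinarith
    have := le_of_mul_le_mul_right this hp'
    exact le_of_mul_le_mul_left this hσ0
  have e1 := h.hQ.hom σ (p + M) r hσ0.le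
  have e2 := h.hP.hom σ p r hσ0.le
  rw [eσ, er] at e1
  rw [er] at e2
  have i1 := h.c1 r hr0 hrt
  have i2 : Q q T ≤ P (σ * p) T + σ * (M + η * M) := by
    rw [e1, e2]; nlinarith
  set s := (P (q + M) T - T) / (q + M) with hs
  have es : P (q + M) T = T + s * (q + M) := by rw [hs]; field_simp; ring
  have hc1 : σ * p ≤ q + M := by nlinarith
  have i3 := h.hP.line (by positivity) hc1 hq' hT.le es.le
  have i4 := h.c4
  have i5 : s * (q + M) - s * (σ * p) ≤ σ * (M + η * M) + η * M := by linarith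
  have i6 : M * (s * (p + q + M)) ≤ M * (q + η * (p + q + M)) := by
    have := mul_le_mul_of_nonneg_right i5 hp'.le
    have e3 : (s * (q + M) - s * (σ * p)) * (p + M) = M * (s * (p + q + M)) := by
      linear_combination (-(s * p)) * eσ
    have e4 : (σ * (M + η * M) + η * M) * (p + M) = M * (q + η * (p + q + M)) := by
      linear_combination (M + η * M) * eσ
    linarith
  have i7 := le_of_mul_le_mul_left i6 hM
  have i8 : T ≤ s * p := h.hP.slope hp ht hT htT h.c2 (by nlinarith) hq' es.le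
  constructor
  · have : T * (p + q + M) ≤ s * p * (p + q + M) := by gcongr
    nlinarith
  · rw [es]; nlinarith

theorem Ch.mid (h : Ch P Q p q M η t T) (hp : 0 < p) (hq : 0 < q) (hM : 0 < M)
    (ht : 0 < t) (hT : 0 < T) (htT : t + T = 1) (hsm : η * p < T)
    (hg : q * t < (p + M) * T) : (q + M) * t < p * T := by
  by_contra hc
  push Not at hc
  have hp' : 0 < p + M := by linarith
  have hq' : 0 < q + M := by linarith
  set s := (P (q + M) T - T) / (q + M) with hs
  have es : P (q + M) T = T + s * (q + M) := by rw [hs]; field_simp; ring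
  have i8 : T ≤ s * p := h.hP.slope hp ht hT htT h.c2 hc hq' es.le
  have e1 := h.hQ.hom (T / t) (p + M) t (by positivity)
  rw [div_mul_cancel₀ _ ht.ne'] at e1
  have hle : q ≤ T / t * (p + M) := by
    rw [div_mul_eq_mul_div, le_div_iff₀ ht]; linarith
  have hq0 : 0 < T / t := by positivity
  have i1 : Q (T / t * (p + M)) T ≤ T + (T + η * M) / (p + M) * (T / t * (p + M)) := by
    rw [e1]
    have e2 : T + (T + η * M) / (p + M) * (T / t * (p + M)) = T / t * (1 + η * M) := by
      have : T = T / t * t := (div_mul_cancel₀ _ ht.ne').symm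
      have e3 : (T + η * M) / (p + M) * (T / t * (p + M)) = T / t * (T + η * M) := by
        field_simp
      rw [e3]
      linear_combination this + T / t * htT
    rw [e2]
    exact mul_le_mul_of_nonneg_left h.c2' hq0.le
  have i2 := h.hQ.line hq.le hle (by positivity) hT.le i1
  have i3 := h.c4
  have i4 : s * (q + M) ≤ (T + η * M) / (p + M) * q + η * M := by linarith
  have i5 : s * (q + M) * (p + M) ≤ (T + η * M) * q + η * M * (p + M) := by
    have := mul_le_mul_of_nonneg_right i4 hp'.le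
    have e : ((T + η * M) / (p + M) * q + η * M) * (p + M) = (T + η * M) * q + η * M * (p + M) := by
      field_simp
    linarith
  have i6 : T * ((q + M) * (p + M)) ≤ s * p * ((q + M) * (p + M)) := by gcongr
  have i7 : s * (q + M) * (p + M) * p ≤ ((T + η * M) * q + η * M * (p + M)) * p := by gcongr
  have i9 : T * (M * (p + q + M)) ≤ η * p * (M * (p + q + M)) := by nlinarith
  have := le_of_mul_le_mul_right i9 (by positivity)
  linarith

theorem Ch.bad (h : Ch P Q p q M η t T) (hp : 0 < p) (hq : 0 < q) (hM : 0 < M)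
    (ht : 0 < t) (htT : t + T = 1) (hb : (q + M) * t < p * T) :
    T * (p + q + M) ≤ p * (p + M) + η * p * (p + q + M) := by
  have hp' : 0 < p + M := by linarith
  have hq' : 0 < q + M := by linarith
  set σ := p / (q + M) with hσ
  have hσ0 : 0 < σ := by positivity
  have eσ : σ * (q + M) = p := div_mul_cancel₀ _ hq'.ne'
  set r := t / σ with hr
  have er : σ * r = t := by rw [hr]; field_simp
  have hr0 : 0 ≤ r := by positivity
  have hrt : r ≤ T := by
    have : σ * r * (q + M) ≤ σ * T * (q + M) := by nlinarith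
    have := le_of_mul_le_mul_right this hq'
    exact le_of_mul_le_mul_left this hσ0
  have e1 := h.hP.hom σ (q + M) r hσ0.le
  have e2 := h.hQ.hom σ q r hσ0.le
  rw [eσ, er] at e1
  rw [er] at e2
  have i1 := h.c3 r hr0 hrt
  have i2 : P p t ≤ Q (σ * q) t + σ * (M + η * M) := by
    rw [e1, e2]; nlinarith
  have i0 : Q (p + M) t ≤ t + (T + η * M) / (p + M) * (p + M) := by
    rw [div_mul_cancel₀ _ hp'.ne']
    linarith [h.c2']
  have hc1 : σ * q ≤ p + M := by nlinarith
  have i3 := h.hQ.line (by positivity) hc1 hp' ht.le i0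
  have i4 : T ≤ (T + η * M) / (p + M) * (σ * q) + σ * (M + η * M) := by linarith [h.c2]
  have i5 := mul_le_mul_of_nonneg_right i4 (by positivity : 0 ≤ (p + M) * (q + M))
  have e3 : ((T + η * M) / (p + M) * (σ * q) + σ * (M + η * M)) * ((p + M) * (q + M)) =
      (T + η * M) * (p * q) + p * (p + M) * (M + η * M) := by
    rw [hσ]; field_simp
  rw [e3] at i5
  have i6 : M * (T * (p + q + M)) ≤ M * (p * (p + M) + η * p * (p + q + M)) := by nlinarith
  exact le_of_mul_le_mul_left i6 hM

section planes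

variable {V : Type*} [SeminormedAddCommGroup V] [NormedSpace ℝ V]

theorem pl_norm (e y : V) (hy : ‖y‖ = 1) : Pl (fun c r => ‖c • e + r • y‖) where
  hom s c r hs := by
    rw [mul_smul, mul_smul, ← smul_add, norm_smul, Real.norm_of_nonneg hs]
  conv c₁ c₂ r h0 h1 hr := by
    have h2 : 0 ≤ c₂ := h0.trans h1
    have e1 : c₂ • (c₁ • e + r • y) = ((c₂ - c₁) * r) • y + c₁ • (c₂ • e + r • y) := by
      module
    calc c₂ * ‖c₁ • e + r • y‖ = ‖c₂ • (c₁ • e + r • y)‖ := by
          rw [norm_smul, Real.norm_of_nonneg h2]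
      _ ≤ ‖((c₂ - c₁) * r) • y‖ + ‖c₁ • (c₂ • e + r • y)‖ := by rw [e1]; exact norm_add_le _ _
      _ = _ := by
          rw [norm_smul, norm_smul, hy, mul_one, Real.norm_of_nonneg h0,
            Real.norm_of_nonneg (mul_nonneg (by linarith) hr)]

theorem norm_mid (w y : V) {t T : ℝ} (ht : 0 ≤ t) (hT : 0 ≤ T) (htT : t + T = 1) :
    ‖w‖ ≤ t * ‖w + T • y‖ + T * ‖w + t • (-y)‖ := by
  have e : w = t • (w + T • y) + T • (w + t • (-y)) := by
    have : w = (t + T) • w := by rw [htT, one_smul]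
    conv_lhs => rw [this]
    module
  calc ‖w‖ = ‖t • (w + T • y) + T • (w + t • (-y))‖ := by rw [← e]
    _ ≤ _ := by
      refine (norm_add_le _ _).trans ?_
      rw [norm_smul, norm_smul, Real.norm_of_nonneg ht, Real.norm_of_nonneg hT]

end planes

theorem cross {p q M η t T : ℝ} (hp : 0 < p) (hM : 0 < M) (hη : 0 ≤ η) (ht : 0 < t) (hT : 0 < T)
    (htT : t + T = 1) (hd : p + q + M ≤ 2) (hq : 0 < q) (s3 : 8 * η ≤ M)
    (k1 : T * (p + q + M) ≤ p * q + η * p * (p + q + M))
    (k4 : q + M ≤ t * (q + 2 * η) + T * (1 + η * M)) : (q + M) * T ≤ p * t := by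
  have k5 : T * (q + 2 * η) ≤ T * 1 := by
    have h1 : T * (η * M) ≤ 1 * (η * 2) := by gcongr <;> linarith
    have h2 : t * (q + 2 * η) = (q + 2 * η) - T * (q + 2 * η) := by
      linear_combination (q + 2 * η) * htT
    rw [h2] at k4
    linarith
  have k6 := le_of_mul_le_mul_left k5 hT
  have k7 : η * p * (p + q + M) ≤ η * p * 2 := by gcongr
  have k8 : p * (q + 2 * η) ≤ p * (t + T) := by rw [htT]; gcongr
  linarith

theorem bothbad {a b M η t T : ℝ} (ha : 0 < a) (hb : 0 < b) (hM : 0 < M) (hη : 0 ≤ η) (ht : 0 < t)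
    (htT : t + T = 1) (hd : a + b + M ≤ 2) (s1 : 8 * η ≤ M * t) (hab : a ≤ b)
    (m1 : (b + M) * t < a * T) (m2 : (a + M) * t < b * T)
    (b1 : T * (a + b + M) ≤ a * (a + M) + η * a * (a + b + M)) : False := by
  have hd0 : 0 < a + b + M := by positivity
  have hTl : 1 + M * t < 2 * T := by
    have k1 : (a + b) * t + 2 * (M * t) < (a + b) * T := by linarith
    have k2 : (a + b) * (M * t) ≤ 2 * (M * t) := by gcongr; linarith
    have k3 : (a + b) * (t + M * t) < (a + b) * T := by linarith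
    have := lt_of_mul_lt_mul_left k3 (by positivity)
    linarith
  have k1 : a * (a + M) ≤ (a + b + M) / 2 := by nlinarith [sq_nonneg (a - 1), sq_nonneg (a + M - 1)]
  have k2 : η * a * (a + b + M) ≤ η * 2 * (a + b + M) := by gcongr; linarith
  have k3 : T * (a + b + M) ≤ (1 / 2 + 2 * η) * (a + b + M) := by linarith
  have := le_of_mul_le_mul_right k3 hd0
  have : 0 < M * t := by positivity
  linarith

/-- the steady configuration is impossible -/
theorem steady_false {X Y : Type*} [SeminormedAddCommGroup X] [NormedSpace ℝ X]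
    [SeminormedAddCommGroup Y] [NormedSpace ℝ Y] {e y : X} {e' y' : Y} {a b M η t T : ℝ}
    (he : ‖e‖ = 1) (hy : ‖y‖ = 1) (he' : ‖e'‖ = 1) (hy' : ‖y'‖ = 1)
    (ha : 0 < a) (hb : 0 < b) (hM : 0 < M) (hη : 0 ≤ η) (ht : 0 < t) (hT : 0 < T)
    (htT : t + T = 1) (hd : a + b + M ≤ 2) (s1 : 8 * η ≤ M * t) (s2 : 4 * η ≤ T)
    (x1 : ‖a • e + t • y‖ = 1) (x2 : ‖(a + M) • e' + t • y'‖ = 1)
    (z1 : ‖b • e' + t • (-y')‖ = 1) (z2 : ‖(b + M) • e + t • (-y)‖ ≤ 1 + η * M)
    (xa : ∀ r, -T ≤ r → r ≤ t → ‖(a + M) • e' + r • y'‖ ≤ ‖a • e + r • y‖ + M)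
    (xb : ‖(a + M) • e' + T • (-y')‖ = ‖a • e + T • (-y)‖)
    (za : ∀ r, -t ≤ r → r ≤ T → ‖(b + M) • e + r • y‖ ≤ ‖b • e' + r • y'‖ + M + η * M)
    (zb : ‖(b + M) • e + T • y‖ ≤ ‖b • e' + T • y'‖ + η * M) : False := by
  have hηM : 0 ≤ η * M := by positivity
  have C1 : Ch (fun c r => ‖c • e + r • y‖) (fun c r => ‖c • e' + r • y'‖) a b M η t T :=
    ⟨pl_norm e y hy, pl_norm e' y' hy', fun r h0 h1 => by linarith [xa r (by linarith) h1],
      x1.ge, by simp only [x2]; linarith, fun r h0 h1 => za r (by linarith) h1, zb⟩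
  have C2 : Ch (fun c r => ‖c • e' + r • (-y')‖) (fun c r => ‖c • e + r • (-y)‖) b a M η t T := by
    refine ⟨pl_norm e' _ (by rw [norm_neg, hy']), pl_norm e _ (by rw [norm_neg, hy]), ?_, z1.ge, z2,
      ?_, by simp only [xb]; linarith⟩
    · intro r h0 h1
      have := za (-r) (by linarith) (by linarith)
      simpa only [neg_smul, smul_neg] using this
    · intro r h0 h1
      have := xa (-r) (by linarith) (by linarith)
      simp only [neg_smul, smul_neg] at this ⊢
      linarith
  have s3 : 8 * η ≤ M := s1.trans (mul_le_of_le_one_right hM.le (by linarith))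
  have hηd : η * (a + b + M) ≤ η * 2 := by gcongr
  have hηd' : η * (b + a + M) ≤ η * 2 := by gcongr; linarith
  have both : (a + M) * T ≤ b * t → (b + M) * T ≤ a * t → False := by
    intro g1 g2
    have k1 : ‖(b + M) • e + T • y‖ ≤ _ := (C1.good ha hb hM ht hT htT g1).2
    have k2 : ‖(a + M) • e' + T • (-y')‖ ≤ _ := (C2.good hb ha hM ht hT htT g2).2
    rw [xb] at k2
    have e1 : (a + (b + M)) • e = ((b + M) • e + T • y) + (a • e + T • (-y)) := by module
    have k3 : a + (b + M) ≤ ‖(b + M) • e + T • y‖ + ‖a • e + T • (-y)‖ := by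
      calc a + (b + M) = ‖(a + (b + M)) • e‖ := by
            rw [norm_smul, he, mul_one, Real.norm_of_nonneg (by positivity)]
        _ ≤ _ := by rw [e1]; exact norm_add_le _ _
    linarith
  by_cases g1 : (a + M) * T ≤ b * t
  · apply both g1
    have k1 := (C1.good ha hb hM ht hT htT g1).1
    have k2 : ‖(b + M) • e + T • y‖ ≤ _ := (C1.good ha hb hM ht hT htT g1).2
    have k3 := norm_mid ((b + M) • e) y ht.le hT.le htT
    rw [norm_smul, he, mul_one, Real.norm_of_nonneg (by positivity)] at k3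
    refine cross ha hM hη ht hT htT hd hb s3 k1 (k3.trans (add_le_add ?_ ?_))
    · exact mul_le_mul_of_nonneg_left (by linarith) ht.le
    · exact mul_le_mul_of_nonneg_left z2 hT.le
  by_cases g2 : (b + M) * T ≤ a * t
  · apply g1
    have k1 := (C2.good hb ha hM ht hT htT g2).1
    have k2 : ‖(a + M) • e' + T • (-y')‖ ≤ _ := (C2.good hb ha hM ht hT htT g2).2
    have k3 := norm_mid ((a + M) • e') (-y') ht.le hT.le htT
    rw [norm_smul, he', mul_one, Real.norm_of_nonneg (by positivity), neg_neg, x2] at k3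
    refine cross hb hM hη ht hT htT (by linarith) ha s3 k1 (k3.trans (add_le_add ?_ ?_))
    · exact mul_le_mul_of_nonneg_left (by linarith) ht.le
    · exact mul_le_mul_of_nonneg_left (by linarith) hT.le
  push Not at g1 g2
  have sa : η * a < T := by
    have : η * a ≤ η * 2 := by gcongr; linarith
    linarith
  have sb : η * b < T := by
    have : η * b ≤ η * 2 := by gcongr; linarith
    linarith
  have m1 := C1.mid ha hb hM ht hT htT sa g1
  have m2 := C2.mid hb ha hM ht hT htT sb g2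
  rcases le_total a b with hab | hab
  · exact bothbad ha hb hM hη ht htT hd s1 hab m1 m2 (C1.bad ha hb hM ht htT m1)
  · exact bothbad hb ha hM hη ht htT (by linarith) s1 hab m2 m1 (C2.bad hb ha hM ht htT m2)

end Vale.Agent.P084
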